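import Vale.Agent.P208U.Defs
import Vale.Agent.P208U.Glue

open Vale.Agent.P208U

namespace Vale.Agent.Results.P208.Uniform

/-- a unit vector of `ℓ₂` -/
lemma exists_unit : ∃ e : ell2, ‖e‖ = 1 := by
  refine ⟨lp.single 2 0 (1 : ℝ), ?_⟩
  rw [lp.norm_single (by norm_num)]
  simp

theorem result : List.TFAE [
    -- Q1, positive answer
    ∀ X : Set ell2, (∃ lam : ℕ, DoublingWith lam X) → ∃ (k : ℕ) (D : ℝ), Embeds k D X,
    -- positive answer for sets with a single limit point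
    ∀ X : Set ell2, (∃ q ∈ X, ∀ ε > (0 : ℝ), (X \ Metric.closedBall q ε).Finite) →
      (∃ lam : ℕ, DoublingWith lam X) → ∃ (k : ℕ) (D : ℝ), Embeds k D X,
    -- uniform bounds for finite sets
    ∀ lam : ℕ, ∃ (k : ℕ) (D : ℝ), ∀ X : Set ell2, X.Finite → DoublingWith lam X → Embeds k D X,
    -- the strong form
    ∀ lam : ℕ, ∃ (k : ℕ) (D : ℝ), ∀ X : Set ell2, DoublingWith lam X → Embeds k D X,
    -- only the dimension uniform
    ∀ lam : ℕ, ∃ k : ℕ, ∀ X : Set ell2, DoublingWith lam X → ∃ D : ℝ, Embeds k D X,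
    -- only the distortion uniform
    ∀ lam : ℕ, ∃ D : ℝ, ∀ X : Set ell2, DoublingWith lam X → ∃ k : ℕ, Embeds k D X] := by
  obtain ⟨e, he⟩ := exists_unit
  tfae_have 1 → 2 := fun h X _ hX => h X hX
  tfae_have 2 → 3 := fun h => uniform_of_seq e he h
  tfae_have 3 → 4 := fun h => uniform_of_finite h
  tfae_have 4 → 5 := by
    intro h lam
    obtain ⟨k, D, hkD⟩ := h lam
    exact ⟨k, fun X hX => ⟨D, hkD X hX⟩⟩
  tfae_have 4 → 6 := by
    intro h lam
    obtain ⟨k, D, hkD⟩ := h lam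
    exact ⟨D, fun X hX => ⟨k, hkD X hX⟩⟩
  tfae_have 5 → 1 := by
    rintro h X ⟨lam, hX⟩
    obtain ⟨k, hk⟩ := h lam
    obtain ⟨D, hD⟩ := hk X hX
    exact ⟨k, D, hD⟩
  tfae_have 6 → 1 := by
    rintro h X ⟨lam, hX⟩
    obtain ⟨D, hk⟩ := h lam
    obtain ⟨k, hD⟩ := hk X hX
    exact ⟨k, D, hD⟩
  tfae_finish

end Vale.Agent.Results.P208.Uniform
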