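import Mathlib
import Vale.Agent.P208.Main
import Vale.Agent.Results.P208.Uniform

/-! P208 (Lang-Plaut problem): all equivalent forms and all permanence theorems in one statement. -/

namespace Vale.Agent.Results.P208.AllResults

open Module

theorem result :
    List.TFAE [
      ∀ X : Set Vale.Agent.P208U.ell2, (∃ lam : ℕ, Vale.Agent.P208U.DoublingWith lam X) →
        ∃ (k : ℕ) (D : ℝ), Vale.Agent.P208U.Embeds k D X,
      ∀ X : Set Vale.Agent.P208U.ell2, (∃ q ∈ X, ∀ ε > (0 : ℝ), (X \ Metric.closedBall q ε).Finite) →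
        (∃ lam : ℕ, Vale.Agent.P208U.DoublingWith lam X) → ∃ (k : ℕ) (D : ℝ), Vale.Agent.P208U.Embeds k D X,
      ∀ lam : ℕ, ∃ (k : ℕ) (D : ℝ), ∀ X : Set Vale.Agent.P208U.ell2, X.Finite →
        Vale.Agent.P208U.DoublingWith lam X → Vale.Agent.P208U.Embeds k D X,
      ∀ lam : ℕ, ∃ (k : ℕ) (D : ℝ), ∀ X : Set Vale.Agent.P208U.ell2, Vale.Agent.P208U.DoublingWith lam X →
        Vale.Agent.P208U.Embeds k D X,
      ∀ lam : ℕ, ∃ k : ℕ, ∀ X : Set Vale.Agent.P208U.ell2, Vale.Agent.P208U.DoublingWith lam X →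
        ∃ D : ℝ, Vale.Agent.P208U.Embeds k D X,
      ∀ lam : ℕ, ∃ D : ℝ, ∀ X : Set Vale.Agent.P208U.ell2, Vale.Agent.P208U.DoublingWith lam X →
        ∃ k : ℕ, Vale.Agent.P208U.Embeds k D X] ∧
    (∀ (k N : ℕ) (D c : ℝ), 0 < c → ∃ (K : ℕ) (D' : ℝ), ∀ (X : Type*) [MetricSpace X]
      (ι : Type*) (p : X) (ℓ : X → ι), Vale.Agent.P208.Doubling N X →
      (∀ x y, x ≠ p → y ≠ p → ℓ x ≠ ℓ y → c * max (dist x p) (dist y p) ≤ dist x y) →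
      (∀ i, Vale.Agent.P208.Embeds k D {x : X // x = p ∨ ℓ x = i}) →
      Vale.Agent.P208.Embeds K D' X) ∧
    (∀ (k N : ℕ) (c : ℝ), 0 ≤ c → c < 1 → ∃ (K : ℕ) (D' : ℝ), ∀ (H : Type*)
      [NormedAddCommGroup H] [InnerProductSpace ℝ H] (X : Set H) (p : H)
      (𝒱 : Set (Submodule ℝ H)),
      (∀ V ∈ 𝒱, FiniteDimensional ℝ V ∧ finrank ℝ V ≤ k) →
      (∀ V ∈ 𝒱, ∀ W ∈ 𝒱, V ≠ W → ∀ v ∈ V, ∀ w ∈ W, |inner ℝ v w| ≤ c * (‖v‖ * ‖w‖)) →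
      (∀ x ∈ X, ∃ V ∈ 𝒱, x - p ∈ V) → Vale.Agent.P208.Doubling N X →
      Vale.Agent.P208.Embeds K D' X) ∧
    (∀ (k : ℕ) (H : Type*) [NormedAddCommGroup H] [InnerProductSpace ℝ H] (X : Set H) (p : H)
      (V : ℤ → Submodule ℝ H), (∀ n, FiniteDimensional ℝ (V n)) → (∀ n, finrank ℝ (V n) ≤ k) →
      (∀ x ∈ X, ∀ n : ℤ, (2 : ℝ) ^ n ≤ ‖x - p‖ → ‖x - p‖ < 2 ^ (n + 1) → x - p ∈ V n) →
      Vale.Agent.P208.Embeds (2 * k) 9 X) :=
  ⟨Vale.Agent.Results.P208.Uniform.result,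
    fun k N D c hc => Vale.Agent.P208.wedge k N D c hc,
    fun k N c h0 h1 => Vale.Agent.P208.cone k N c h0 h1,
    fun k _ _ _ X p V h1 h2 h3 => Vale.Agent.P208.annular k X p V h1 h2 h3⟩

end Vale.Agent.Results.P208.AllResults
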