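import Vale.Agent.P208H16.Sep

namespace Vale.Agent.Results.P208.WeakStrong

open Set Vale.Agent.P208H16

/-- Real separable Hilbert space. -/
abbrev Hilb : Type := lp (fun _ : ℕ => ℝ) 2

/-- The weak Lang-Plaut statement (every doubling subset of Hilbert space has a bi-Lipschitz
embedding in some Euclidean space) is equivalent to its restriction to sets accumulating only at
the origin, to its restriction to sets with all distances at least one, to the uniform statement
for finite sets, and to the strong statement in which dimension and distortion depend on the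
doubling constant alone. -/
theorem result :
    List.TFAE [
      (∀ X : Set Hilb, Doubling X → Embeds X),
      (∀ X : Set Hilb, (0 : Hilb) ∈ X → (∀ ε : ℝ, 0 < ε → {x ∈ X | ε ≤ ‖x‖}.Finite) →
        Doubling X → Embeds X),
      (∀ X : Set Hilb, (∀ x ∈ X, ∀ y ∈ X, x ≠ y → 1 ≤ dist x y) → Doubling X → Embeds X),
      (∀ N : ℕ, ∃ (k : ℕ) (D : ℝ), ∀ X : Set Hilb, X.Finite → DoublingWith N X →
        EmbedsWith k D X),
      (∀ N : ℕ, ∃ (k : ℕ) (D : ℝ), ∀ X : Set Hilb, DoublingWith N X → EmbedsWith k D X)] := by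
  have he : ‖(lp.single 2 0 1 : Hilb)‖ = 1 := by
    rw [lp.norm_single (by norm_num)]; simp
  tfae_have 1 → 2 := fun h X _ _ hX => h X hX
  tfae_have 1 → 3 := fun h X _ hX => h X hX
  tfae_have 2 → 4 := by
    intro h N
    by_contra hcon
    push Not at hcon
    obtain ⟨U, h0, hf, hd, hU⟩ := bad_null he (N := N) hcon
    exact hU (h U h0 hf ⟨_, hd⟩)
  tfae_have 3 → 4 := by
    intro h N
    by_contra hcon
    push Not at hcon
    obtain ⟨U, hf, hd, hU⟩ := bad_sep he (N := N) hcon
    exact hU (h U hf ⟨_, hd⟩)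
  tfae_have 4 → 5 := by
    intro h N
    obtain ⟨k, D, hk⟩ := h (N * N)
    exact ⟨k, max D 1, fun X hX => embeds_of_finite fun F hF hFf => hk F hFf (hX.subset hF)⟩
  tfae_have 5 → 1 := by
    rintro h X ⟨N, hX⟩
    obtain ⟨k, D, hk⟩ := h N
    exact ⟨k, D, hk X hX⟩
  tfae_finish

end Vale.Agent.Results.P208.WeakStrong
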