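import Mathlib
import Vale.Agent.P208.Main

/-! P208 (Lang-Plaut problem): a permanence theorem for doubling spaces, and classes of doubling
subsets of Hilbert space that embed bi-Lipschitzly into Euclidean space. -/

namespace Vale.Agent.Results.P208.WedgesAndCones

open Module Vale.Agent.P208

theorem result :
    (∀ (k N : ℕ) (D c : ℝ), 0 < c → ∃ (K : ℕ) (D' : ℝ), ∀ (X : Type*) [MetricSpace X]
      (ι : Type*) (p : X) (ℓ : X → ι), Doubling N X →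
      (∀ x y, x ≠ p → y ≠ p → ℓ x ≠ ℓ y → c * max (dist x p) (dist y p) ≤ dist x y) →
      (∀ i, Embeds k D {x : X // x = p ∨ ℓ x = i}) → Embeds K D' X) ∧
    (∀ (k N : ℕ) (c : ℝ), 0 ≤ c → c < 1 → ∃ (K : ℕ) (D' : ℝ), ∀ (H : Type*)
      [NormedAddCommGroup H] [InnerProductSpace ℝ H] (X : Set H) (p : H)
      (𝒱 : Set (Submodule ℝ H)),
      (∀ V ∈ 𝒱, FiniteDimensional ℝ V ∧ finrank ℝ V ≤ k) →
      (∀ V ∈ 𝒱, ∀ W ∈ 𝒱, V ≠ W → ∀ v ∈ V, ∀ w ∈ W, |inner ℝ v w| ≤ c * (‖v‖ * ‖w‖)) →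
      (∀ x ∈ X, ∃ V ∈ 𝒱, x - p ∈ V) → Doubling N X → Embeds K D' X) ∧
    (∀ (k : ℕ) (H : Type*) [NormedAddCommGroup H] [InnerProductSpace ℝ H] (X : Set H) (p : H)
      (V : ℤ → Submodule ℝ H), (∀ n, FiniteDimensional ℝ (V n)) → (∀ n, finrank ℝ (V n) ≤ k) →
      (∀ x ∈ X, ∀ n : ℤ, (2 : ℝ) ^ n ≤ ‖x - p‖ → ‖x - p‖ < 2 ^ (n + 1) → x - p ∈ V n) →
      Embeds (2 * k) 9 X) :=
  ⟨fun k N D c hc => wedge k N D c hc, fun k N c h0 h1 => cone k N c h0 h1,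
    fun k _ _ _ X p V h1 h2 h3 => annular k X p V h1 h2 h3⟩

end Vale.Agent.Results.P208.WedgesAndCones
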